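import Vale.Agent.P088.H72.X.Fin
import Vale.Agent.P088.H72.X.Map
import Vale.Agent.P088.H292.BExt
import Vale.Agent.P088.H873.BTopo
import Vale.Agent.P088.H501.BorelRow
import Vale.Agent.P088.R2.H794.B.Spec

/-!
# P088, two metrics near the flat one on a smooth domain: the assembly (row B_FIN)
-/

open MeasureTheory Set
open scoped ContDiff Matrix

noncomputable section

namespace Vale.Agent.P088.HY.Bd

open Vale.Agent.P088.LR Vale.Agent.P088.LR.B Vale.Agent.P088.LR.CF Vale.Agent.P088.H639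
  Vale.Agent.P088.LR.H72 Vale.Agent.P088.LR.BX

variable {n : ℕ}

theorem bls_subset_bal : bls n ⊆ bal n := by
  intro x hx
  have h : ∑ j, (x j - 1 / 2) ^ 2 ≤ 1 / 1024 := hx
  show ∑ j, (x j - 1 / 2) ^ 2 ≤ 1 / 16
  linarith

/-- A tensor near `1` is uniformly elliptic. -/
theorem elp_of_cl {s : MF n} {k : ℕ} {ε : ℝ} (hε : ε ≤ 1 / (2 * (n + 1)))
    (h : ∀ i j, Cl k ε (fun x => s x i j - dl i j)) : Elp (1 / 2) s := by
  have h0 : ∀ x i j, |s x i j - dl i j| ≤ ε := by
    intro x i j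
    have h1 := h i j 0 (Nat.zero_le _) x
    rwa [norm_iteratedFDeriv_zero, Real.norm_eq_abs] at h1
  have hn0 : (0 : ℝ) ≤ n := Nat.cast_nonneg n
  have hn : (0 : ℝ) < 2 * (n + 1) := by positivity
  have hε2 : ε * n ≤ 1 / 2 := by
    have h1 : ε * (2 * (n + 1)) ≤ 1 := by
      have h2 := mul_le_mul_of_nonneg_right hε hn.le
      rwa [one_div, inv_mul_cancel₀ hn.ne'] at h2
    by_cases h3 : 0 ≤ ε
    · nlinarith
    · nlinarith [mul_nonneg (neg_nonneg.2 (not_le.1 h3).le) hn0]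
  refine ⟨fun x b => ?_, fun x i j => ?_⟩
  · have e1 : ∑ i, ∑ j, s x i j * b i * b j =
        (∑ i, b i ^ 2) + ∑ i, ∑ j, (s x i j - dl i j) * b i * b j := by
      have e2 : ∑ i, b i ^ 2 = ∑ i, ∑ j, (dl i j : ℝ) * b i * b j := by
        refine Finset.sum_congr rfl fun i _ => ?_
        rw [Finset.sum_eq_single i]
        · simp only [dl, Matrix.one_apply_eq]; ring
        · intro j _ hj
          simp only [dl, Matrix.one_apply_ne (Ne.symm hj)]; ring
        · intro hi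
          exact absurd (Finset.mem_univ i) hi
      rw [e2, ← Finset.sum_add_distrib]
      refine Finset.sum_congr rfl fun i _ => ?_
      rw [← Finset.sum_add_distrib]
      refine Finset.sum_congr rfl fun j _ => ?_
      ring
    have e3 : ∀ i j, -(ε * ((b i ^ 2 + b j ^ 2) / 2)) ≤ (s x i j - dl i j) * b i * b j := by
      intro i j
      have h1 := h0 x i j
      have h2 : |(s x i j - dl i j) * b i * b j| ≤ ε * ((b i ^ 2 + b j ^ 2) / 2) := by
        rw [mul_assoc, abs_mul]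
        have h3 : |b i * b j| ≤ (b i ^ 2 + b j ^ 2) / 2 := by
          rw [abs_le]
          constructor
          · nlinarith [sq_nonneg (b i + b j)]
          · nlinarith [sq_nonneg (b i - b j)]
        exact mul_le_mul h1 h3 (abs_nonneg _) ((abs_nonneg _).trans h1)
      exact (abs_le.1 h2).1
    have e4 : ∑ i, ∑ j, -(ε * ((b i ^ 2 + b j ^ 2) / 2)) = -(ε * n * ∑ i, b i ^ 2) := by
      have e5 : ∑ i : Fin n, ∑ j : Fin n, (b i ^ 2 + b j ^ 2) = 2 * n * ∑ i, b i ^ 2 := by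
        simp only [Finset.sum_add_distrib, Finset.sum_const, Finset.card_univ, Fintype.card_fin,
          nsmul_eq_mul, ← Finset.mul_sum]
        ring
      have e6 : ∑ i : Fin n, ∑ j : Fin n, -(ε * ((b i ^ 2 + b j ^ 2) / 2)) =
          -(ε / 2) * ∑ i : Fin n, ∑ j : Fin n, (b i ^ 2 + b j ^ 2) := by
        rw [Finset.mul_sum]
        refine Finset.sum_congr rfl fun i _ => ?_
        rw [Finset.mul_sum]
        refine Finset.sum_congr rfl fun j _ => ?_
        ring
      rw [e6, e5]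
      ring
    have e7 : -(ε * n * ∑ i, b i ^ 2) ≤ ∑ i, ∑ j, (s x i j - dl i j) * b i * b j := by
      rw [← e4]
      exact Finset.sum_le_sum fun i _ => Finset.sum_le_sum fun j _ => e3 i j
    have hb : 0 ≤ ∑ i, b i ^ 2 := Finset.sum_nonneg fun i _ => sq_nonneg _
    rw [e1]
    nlinarith
  · have h1 := h0 x i j
    have h2 : |(dl i j : ℝ)| ≤ 1 := by
      by_cases hij : i = j
      · subst hij; simp [dl]
      · simp [dl, Matrix.one_apply_ne hij]
    have h3 : ε ≤ 1 := by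
      refine hε.trans ?_
      rw [div_le_one hn]
      linarith
    have h4 : |s x i j| ≤ |s x i j - dl i j| + |(dl i j : ℝ)| := by
      have := abs_add_le (s x i j - dl i j) (dl i j)
      rwa [sub_add_cancel] at this
    have h5 : ((1 / 2 : ℝ))⁻¹ = 2 := by norm_num
    rw [h5]
    linarith

/-- The pointwise computation. -/
theorem alg_pointB {s s' s₁ : MF n} {w K w' K' : V n → V n} (D : Dif univ w K)
    {Ω : Set (V n)} (D' : Dif Ω w' K') (x : V n) (hs' : s' (x + w x) = psh s w K (x + w x))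
    (h1 : psh s' w' K' ((x + w x) + w' (x + w x)) = s₁ ((x + w x) + w' (x + w x))) :
    (jm w' (x + w x) * jm w x).det⁻¹ • ((jm w' (x + w x) * jm w x) * s x *
      (jm w' (x + w x) * jm w x)ᵀ) = s₁ ((x + w x) + w' (x + w x)) := by
  rw [← h1]
  unfold psh
  rw [D'.l, hs']
  unfold psh
  rw [D.l, Matrix.det_mul, Matrix.transpose_mul, mul_inv]
  simp only [Matrix.mul_smul, Matrix.smul_mul, smul_smul, mul_assoc]

/-- **The assembly.** -/
theorem finB (hT : RowTOPO) (hB : RowBOREL) (hM : BX.RowMAP) (hI : RowBINF) (hE : RowEXT)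
    (hR : RowLOG) : RowBFIN := by
  intro n hn ρ hρ hρb
  obtain ⟨hO, hOc, hfr, hcl, hic, hde⟩ := hT ρ hρ
  have hOb : Om ρ ⊆ bls n := by
    intro x hx
    by_contra h
    have h1 : 0 < ρ x := hx
    rw [hρb x h] at h1
    linarith
  have hbd : Bornology.IsBounded (Om ρ) := H833.bounded_core.subset hOc
  obtain ⟨kr, εr, hεr, hR⟩ := hR n hn
  obtain ⟨a₀, ha₀, hI⟩ := hI n hn (1 / 2) (by norm_num)
  obtain ⟨C, ε₀, hC0, hε₀, hph⟩ := H833.phi n kr
  obtain ⟨C', ε₀', hC0', hε₀', hD⟩ := H634.rowDIF n 0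
  set η : ℝ := min (εr / 4) (a₀ / 2) with hη
  have hηp : 0 < η := lt_min (by positivity) (by positivity)
  have hη1 : η ≤ εr / 4 := min_le_left _ _
  have hη2 : η ≤ a₀ / 2 := min_le_right _ _
  set ε1 : ℝ := η / C with hε1
  have hε1p : 0 < ε1 := div_pos hηp hC0
  obtain ⟨δ1, hδ1, hN1⟩ := norm1 n kr ε1 hε1p
  obtain ⟨ε2, hε2p, hε2a, hε2b, hε2c, hε2d⟩ : ∃ ε2 : ℝ, 0 < ε2 ∧ C * ε2 ≤ δ1 ∧ C * ε2 ≤ 1 / 2 ∧
      ε2 ≤ ε₀ ∧ ε2 ≤ ε₀' := by
    refine ⟨min (min (δ1 / C) (1 / 2 / C)) (min ε₀ ε₀'), lt_min (lt_min (by positivity)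
      (by positivity)) (lt_min hε₀ hε₀'), ?_, ?_, (min_le_right _ _).trans (min_le_left _ _),
      (min_le_right _ _).trans (min_le_right _ _)⟩
    · have h1 : min (min (δ1 / C) (1 / 2 / C)) (min ε₀ ε₀') ≤ δ1 / C :=
        (min_le_left _ _).trans (min_le_left _ _)
      calc C * _ ≤ C * (δ1 / C) := mul_le_mul_of_nonneg_left h1 hC0.le
        _ = δ1 := by field_simp
    · have h1 : min (min (δ1 / C) (1 / 2 / C)) (min ε₀ ε₀') ≤ 1 / 2 / C :=
        (min_le_left _ _).trans (min_le_right _ _)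
      calc C * _ ≤ C * (1 / 2 / C) := mul_le_mul_of_nonneg_left h1 hC0.le
        _ = 1 / 2 := by field_simp
  obtain ⟨Kb, δ2, hδ2, hB⟩ := hB ρ hρ (kr + 2) ε2 hε2p
  have hn2 : (0 : ℝ) < 1 / (2 * (n + 1)) := by positivity
  refine ⟨max Kb kr, min (min δ2 δ1) (min η (1 / (2 * (n + 1)))), lt_min (lt_min hδ2 hδ1)
    (lt_min hηp hn2), fun s₁ s hs1 hs hs1p hsp hs11 hs1cl hscl hSE => ?_⟩
  have e1 : min (min δ2 δ1) (min η (1 / (2 * (n + 1)))) ≤ δ2 :=
    (min_le_left _ _).trans (min_le_left _ _)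
  have e2 : min (min δ2 δ1) (min η (1 / (2 * (n + 1)))) ≤ δ1 :=
    (min_le_left _ _).trans (min_le_right _ _)
  have e3 : min (min δ2 δ1) (min η (1 / (2 * (n + 1)))) ≤ η :=
    (min_le_right _ _).trans (min_le_left _ _)
  have e4 : min (min δ2 δ1) (min η (1 / (2 * (n + 1)))) ≤ 1 / (2 * (n + 1)) :=
    (min_le_right _ _).trans (min_le_right _ _)
  have hpsd : ∀ x, (s x).PosSemidef := fun x => (hsp x).posSemidef
  have hpsd1 : ∀ x, (s₁ x).PosSemidef := fun x => (hs1p x).posSemidef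
  have hsym : ∀ x, (s x).IsSymm := fun x => by
    have h : (s x)ᴴ = s x := (hsp x).1
    rwa [Matrix.conjTranspose_eq_transpose_of_trivial] at h
  have hsym1 : ∀ x, (s₁ x).IsSymm := fun x => by
    have h : (s₁ x)ᴴ = s₁ x := (hs1p x).1
    rwa [Matrix.conjTranspose_eq_transpose_of_trivial] at h
  have hElp : Elp (1 / 2) s₁ := elp_of_cl e4 hs1cl
  -- the two coordinate systems
  obtain ⟨w₁, hw₁, hwcl₁, hw0₁, hwn₁, hwd₁⟩ := hB s₁ hs1 hsym1 fun i j =>
    H442.cl_le442 (hs1cl i j) (le_max_left _ _) e1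
  obtain ⟨w₂, hw₂, hwcl₂, hw0₂, hwn₂, hwd₂⟩ := hB s hs hsym fun i j =>
    H442.cl_le442 (hscl i j) (le_max_left _ _) e1
  obtain ⟨w, K, D0, hwcl, hwe, hcomp⟩ := hph {x | ρ x ≠ 0} w₁ w₂ hw₁ hw₂
    (fun x hx => by
      have hx0 : ρ x = 0 := not_not.1 hx
      rw [hw0₁ x hx0, hw0₂ x hx0]) ε2 hε2p.le hε2c hwcl₁ hwcl₂
  have D : Dif univ w K := dif_univ D0
  have hw0 : ∀ x, ρ x = 0 → w x = 0 := fun x hx => D0.z x fun h => h hx
  have hw1 : Cl 1 (1 / 2) w := fun l hl x => (hwcl l (by omega) x).trans hε2b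
  obtain ⟨K₁, D1, -⟩ := hD univ w₁ hw₁ (fun x hx => absurd (mem_univ x) hx)
    (H442.cl_le442 hwcl₁ (by omega) hε2d)
  obtain ⟨hside, hM⟩ := hM ρ hρ w K D hw0 hw1
  obtain ⟨ht, htp, htSE, htg⟩ := hM s₁ s hs1 hs hpsd
  have htSE := htSE hSE
  have htn : ∀ a x, ρ x = 0 → gr (psh s w K) (fun y => y a + w₁ y a) ρ x =
      gr s₁ (fun y => y a + w₁ y a) ρ x := fun a =>
    (htg w₁ w₂ hw₁ hw₂ hwe a).1 fun x hx => by rw [hwn₂ a x hx, hwn₁ a x hx]
  have htd : ∀ a (m : ℕ), ∃ r > 0, ∃ E : V n → ℝ, ContDiff ℝ ∞ E ∧ ∀ x, |ρ x| < r →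
      dr (psh s w K) (fun y => y a + w₁ y a) x = ρ x ^ m * E x := fun a m =>
    (htg w₁ w₂ hw₁ hw₂ hwe a).2 m (hwd₂ a m)
  have htcl := hN1 univ s w K C hs D hcomp
    (fun i j => H442.cl_le442 (hscl i j) (le_max_right _ _) e2)
    (cl_mono hwcl hε2a)
  have hCe : C * ε1 = η := by rw [hε1]; field_simp
  rw [hCe] at htcl
  set t : MF n := psh s w K with htdef
  have hs1clη : ∀ i j, Cl kr η (fun x => s₁ x i j - dl i j) := fun i j =>
    H442.cl_le442 (hs1cl i j) (le_max_right _ _) e3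
  have hhcl : ∀ i j, Cl kr (2 * η) (fun x => t x i j - s₁ x i j) := by
    intro i j
    have h1 := cl_add442 ((ht i j).sub contDiff_const) ((hs1 i j).sub contDiff_const)
      (htcl i j) (hs1clη i j)
    have h2 : (fun x => t x i j - dl i j - (s₁ x i j - dl i j)) =
        fun x => t x i j - s₁ x i j := by
      funext x; ring
    have h3 : η + η = 2 * η := by ring
    rw [h3] at h1
    rw [← h2]
    exact h1
  have hta : ∀ x ∈ Om ρ, ∀ i j, |t x i j - s₁ x i j| ≤ a₀ := by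
    intro x _ i j
    have h := hhcl i j 0 (Nat.zero_le _) x
    rw [norm_iteratedFDeriv_zero, Real.norm_eq_abs] at h
    linarith
  have hflat := hI ρ hρ s₁ t hs1 ht hs1p htp hElp htSE hta w₁ hw₁ (fun x _ => (D1.dp x).ne')
    htn htd hwd₁
  -- the extension by `s₁`
  let s' : MF n := fun x => if 0 < ρ x then t x else s₁ x
  have he : ∀ i j, (fun x => s' x i j - s₁ x i j) =
      fun x => if 0 < ρ x then (t x i j - s₁ x i j) else 0 := by
    intro i j
    funext x
    by_cases hx : 0 < ρ x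
    · simp only [s', hx, if_true]
    · simp only [s', hx, if_false]
      exact sub_self _
  have hext : ∀ i j, ContDiff ℝ ∞ (fun x => s' x i j - s₁ x i j) ∧
      Cl kr (2 * η) (fun x => s' x i j - s₁ x i j) := by
    intro i j
    have h := hE ρ hρ (fun x => t x i j - s₁ x i j) ((ht i j).sub (hs1 i j)) fun m => by
      obtain ⟨b, hb, hb'⟩ := hflat m
      exact ⟨b i j, hb i j, fun x => hb' x i j⟩
    rw [he i j]
    exact ⟨h.1, h.2 kr _ (hhcl i j)⟩
  have hs'sm : SmM s' := by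
    intro i j
    have h := (hext i j).1.add (hs1 i j)
    have h2 : (fun x => s' x i j - s₁ x i j + s₁ x i j) = fun x => s' x i j := by
      funext x; ring
    rwa [h2] at h
  have hs'cl : ∀ i j, Cl kr εr (fun x => s' x i j - (1 : Matrix (Fin n) (Fin n) ℝ) i j) := by
    intro i j l hl x
    have hA : ContDiff ℝ ∞ (fun x => s' x i j - s₁ x i j) := (hext i j).1
    have hBs : ContDiff ℝ ∞ (fun x => s₁ x i j - dl i j) := (hs1 i j).sub contDiff_const
    have e : (fun x => s' x i j - (1 : Matrix (Fin n) (Fin n) ℝ) i j) =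
        (fun x => s' x i j - s₁ x i j) + fun x => s₁ x i j - dl i j := by
      funext x
      simp only [Pi.add_apply]
      ring
    rw [e, iteratedFDeriv_add_apply (hA.of_le (by exact_mod_cast le_top)).contDiffAt
      (hBs.of_le (by exact_mod_cast le_top)).contDiffAt]
    have h1 := (hext i j).2 l hl x
    have h2 := hs1clη i j l hl x
    refine (norm_add_le _ _).trans ?_
    linarith
  have htsym : ∀ x, (t x).IsSymm := H158.isSymm_psh D hsym
  have hs'sym : ∀ x, (s' x).IsSymm := by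
    intro x
    by_cases hx : 0 < ρ x
    · simp only [s', hx, if_true]; exact htsym x
    · simp only [s', hx, if_false]; exact hsym1 x
  have hs'1 : ∀ x ∉ Om ρ, s' x = s₁ x := by
    intro x hx
    have hx' : ¬ 0 < ρ x := hx
    simp only [s', hx', if_false]
  have hs't : ∀ x ∈ Om ρ, s' x = t x := by
    intro x hx
    have hx' : 0 < ρ x := hx
    simp only [s', hx', if_true]
  have hst : St2 (Om ρ) s₁ s' :=
    st2_congr hO hs't (st2_of_SE weak hO hbd hs1 hsym1 hpsd1 ht htsym htp htSE)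
  obtain ⟨w', K', D', h1⟩ := hR (Om ρ) hO hic hOb s₁ s' hs1 hs'sm hsym1 hs'sym hs11 hs'1
    (fun i j => H442.cl_le442 (hs1clη i j) le_rfl (hη1.trans (by linarith))) hs'cl hst
  have hw : ContDiff ℝ ∞ w := D.sw
  have hΦ : ContDiff ℝ ∞ (fun x => (x + w x) + w' (x + w x)) :=
    (contDiff_id.add hw).add (D'.sw.comp (contDiff_id.add hw))
  have hin : ∀ y, y ∉ Om ρ → y + w' y = y := fun y hy => by rw [D'.z y hy, add_zero]
  have hinj : ∀ y z, y + w' y = z + w' z → y = z := fun y z h => by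
    rw [← D'.l y, h, D'.l z]
  have hJ : ∀ x, Jm (fun x => (x + w x) + w' (x + w x)) x = jm w' (x + w x) * jm w x :=
    Jm_comp hw D'.sw
  refine ⟨fun x => (x + w x) + w' (x + w x), fun y => K (K' y), hΦ, D.sK.comp D'.sK, ?_, ?_, ?_,
    ?_, ?_, ?_⟩
  · intro x
    show K (K' ((x + w x) + w' (x + w x))) = x
    rw [D'.l, D.l]
  · intro y
    show (K (K' y) + w (K (K' y))) + w' (K (K' y) + w (K (K' y))) = y
    rw [D.r, D'.r]
  · intro x hx
    have hx' : x ∉ Om ρ := fun h => by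
      have : 0 < ρ x := h
      rw [hx] at this
      exact lt_irrefl _ this
    show (x + w x) + w' (x + w x) = x
    rw [hw0 x hx, add_zero]
    exact hin x hx'
  · intro x
    rw [← hside x]
    by_cases hy : x + w x ∈ Om ρ
    · refine ⟨fun _ => hy, fun _ => ?_⟩
      by_contra hc
      have h2 := hin _ hc
      have h3 := hinj _ _ h2
      exact hc (h3 ▸ hy)
    · show 0 < ρ ((x + w x) + w' (x + w x)) ↔ _
      rw [hin _ hy]
  · intro x
    rw [hJ, Matrix.det_mul]
    exact mul_pos (D'.dp _) (D.dp _)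
  · set Φ : V n → V n := fun x => (x + w x) + w' (x + w x) with hΦd
    have hdet0 : ∀ x, (Jm Φ x).det ≠ 0 := fun x => by
      rw [hJ, Matrix.det_mul]
      exact (mul_pos (D'.dp _) (D.dp _)).ne'
    have hdetc : Continuous fun x => (Jm Φ x).det := by
      have : Continuous fun x => Jm Φ x := continuous_matrix fun i j => continuous_Jm hΦ i j
      exact this.matrix_det
    have hclosed : IsClosed {x | (Jm Φ x).det⁻¹ • (Jm Φ x * s x * (Jm Φ x)ᵀ) = s₁ (Φ x)} := by
      have hset : {x | (Jm Φ x).det⁻¹ • (Jm Φ x * s x * (Jm Φ x)ᵀ) = s₁ (Φ x)} =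
          ⋂ i, ⋂ j, {x | ((Jm Φ x).det⁻¹ • (Jm Φ x * s x * (Jm Φ x)ᵀ)) i j = s₁ (Φ x) i j} := by
        ext x
        simp only [mem_ofPred_eq, mem_iInter]
        exact ⟨fun h i j => by rw [h], fun h => Matrix.ext h⟩
      rw [hset]
      refine isClosed_iInter fun i => isClosed_iInter fun j => isClosed_eq ?_
        ((hs1 i j).continuous.comp hΦ.continuous)
      simp only [Matrix.smul_apply, smul_eq_mul, Matrix.mul_apply, Matrix.transpose_apply]
      refine (hdetc.inv₀ hdet0).mul ?_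
      exact continuous_finsetSum _ fun l _ => (continuous_finsetSum _ fun l' _ =>
        (continuous_Jm hΦ i l').mul (hs l' l).continuous).mul (continuous_Jm hΦ j l)
    have hsub : Om ρ ⊆ {x | (Jm Φ x).det⁻¹ • (Jm Φ x * s x * (Jm Φ x)ᵀ) = s₁ (Φ x)} := by
      intro x hx
      have hy : x + w x ∈ Om ρ := (hside x).2 hx
      show (Jm Φ x).det⁻¹ • (Jm Φ x * s x * (Jm Φ x)ᵀ) = s₁ (Φ x)
      rw [hJ]
      exact alg_pointB D D' x (hs't _ hy) (h1 _)
    intro x hx
    have hx' : x ∈ closure (Om ρ) := by rw [hcl]; exact hx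
    exact closure_minimal hsub hclosed hx'

/-- **Row B_FIN.** -/
theorem rowBFIN (hI : RowBINF) (hR : RowLOG) : RowBFIN :=
  finB H873.topo H501B.rowBOREL BX.map hI H292.ext hR

end Vale.Agent.P088.HY.Bd
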